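import Mathlib

/-! R192, block J: the deterministic part. -/

set_option autoImplicit false

open Finset

namespace Crest.Agent.R192.J

theorem choose_level {m : ℕ → ℝ} {B : ℝ} (hB : 0 ≤ B) (h : ∀ j, m j ≤ 2 * m (j + 1)) (n : ℕ) (hn : m n ≤ B) :
    ∃ j ≤ n, m j ≤ 2 * B ∧ (j = 0 ∨ B < m j) := by
  induction n with
  | zero => exact ⟨0, le_rfl, by linarith, Or.inl rfl⟩
  | succ n ih =>
    rcases le_or_gt (m n) B with h1 | h1
    · obtain ⟨j, hj, h2⟩ := ih h1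
      exact ⟨j, hj.trans n.le_succ, h2⟩
    · exact ⟨n, n.le_succ, by linarith [h n], Or.inr h1⟩

variable {Z : Type} (s : Finset Z) {v a : Z → ℝ}

theorem cs {θ W : ℝ} (hθ : 0 < θ) (hv : ∀ z, 0 ≤ v z) (ha : ∀ z ∈ s, v z ≤ θ ∨ a z = v z ^ 2)
    (hW : ∑ z ∈ s, min 1 ((v z / θ) ^ 2) ≤ W) :
    ∑ z ∈ s, v z ^ 2 ≤ √W * √(∑ z ∈ s, a z ^ 2) + θ ^ 2 * W := by
  have h1 : ∑ z ∈ s, v z ^ 2 ≤ ∑ z ∈ s, (min 1 ((v z / θ) ^ 2) * |a z| + θ ^ 2 * min 1 ((v z / θ) ^ 2)) :=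
    sum_le_sum fun z hz => by
      rcases le_or_gt (v z) θ with h | h
      · rw [min_eq_right (pow_le_one₀ (div_nonneg (hv z) hθ.le) ((div_le_one hθ).2 h))]
        have : θ ^ 2 * (v z / θ) ^ 2 = v z ^ 2 := by field_simp
        rw [this]
        exact le_add_of_nonneg_left (by positivity)
      · rw [min_eq_left (one_le_pow₀ ((one_le_div hθ).2 h.le)), (ha z hz).resolve_left h.not_ge,
          abs_of_nonneg (sq_nonneg _), one_mul]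
        exact le_add_of_nonneg_right (by positivity)
  rw [sum_add_distrib, ← mul_sum] at h1
  have h2 := Real.sum_mul_le_sqrt_mul_sqrt s (fun z => min 1 ((v z / θ) ^ 2)) fun z => |a z|
  simp only [sq_abs] at h2
  have h3 : ∑ z ∈ s, min 1 ((v z / θ) ^ 2) ^ 2 ≤ W := (sum_le_sum fun z _ =>
    pow_le_of_le_one (by positivity) (min_le_left _ _) two_ne_zero).trans hW
  exact h1.trans (add_le_add (h2.trans (mul_le_mul_of_nonneg_right (Real.sqrt_le_sqrt h3) (Real.sqrt_nonneg _)))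
    (mul_le_mul_of_nonneg_left hW (sq_nonneg _)))

theorem det {A Gr d θ : ℝ} (hG : 1 ≤ Gr) (hd : 1 ≤ d) (hlow : 11000 * d * Gr ^ 4 ≤ Real.exp (2 * A))
    (hcard : (s.card : ℝ) ≤ 2 * Gr) (hv : ∀ z, 0 ≤ v z)
    (ha : ∀ z ∈ s, v z ≤ Gr * Real.exp (-(3 * A)) ∨ a z = v z ^ 2)
    (hS : Real.exp (-(8 * A)) ≤ ∑ z ∈ s, a z ^ 2) (hθ : Gr ^ 2 * Real.exp (-(3 * A)) ≤ θ)
    (hW : ∑ z ∈ s, min 1 ((v z / θ) ^ 2) ≤ 10250 * d)
    (hc : θ = Gr ^ 2 * Real.exp (-(3 * A)) ∨ 3 * d - 1 / 4 ≤ ∑ z ∈ s, min 1 ((v z / θ) ^ 4)) :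
    ∑ z ∈ s, v z ^ 2 ≤ 11000 * √d * √(∑ z ∈ s, a z ^ 2) ∧ ∑ z ∈ s, v z ^ 4 ≤ 2 * ∑ z ∈ s, a z ^ 2 := by
  obtain ⟨e, he⟩ : ∃ e, e = Real.exp (-A) := ⟨_, rfl⟩
  have he0 : 0 < e := he ▸ Real.exp_pos _
  have e3 : Real.exp (-(3 * A)) = e ^ 3 := by rw [he, ← Real.exp_nat_mul]; congr 1; push_cast; ring
  have e8 : Real.exp (-(8 * A)) = e ^ 8 := by rw [he, ← Real.exp_nat_mul]; congr 1; push_cast; ring
  have e2 : Real.exp (2 * A) * e ^ 2 = 1 := by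
    rw [he, ← Real.exp_nat_mul, ← Real.exp_add, ← Real.exp_zero]; congr 1; push_cast; ring
  rw [e3] at ha hθ hc
  rw [e8] at hS
  have l1 : 11000 * d * (Gr ^ 4 * e ^ 2) ≤ 1 := by
    nlinarith [mul_le_mul_of_nonneg_right hlow (sq_nonneg e)]
  have g0 : 0 < Gr ^ 4 * e ^ 2 := by positivity
  have l2 : Gr ^ 4 * e ^ 2 ≤ 1 / 2 := by nlinarith
  have h4 : ∑ z ∈ s, v z ^ 4 ≤ 2 * ∑ z ∈ s, a z ^ 2 := by
    have h1 : ∑ z ∈ s, v z ^ 4 ≤ ∑ z ∈ s, (a z ^ 2 + (Gr * e ^ 3) ^ 4) := sum_le_sum fun z hz => by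
      rcases ha z hz with h | h
      · exact (pow_le_pow_left₀ (hv z) h 4).trans (le_add_of_nonneg_left (sq_nonneg _))
      · rw [h, ← pow_mul]
        exact le_add_of_nonneg_right (by positivity)
    rw [sum_add_distrib, sum_const, nsmul_eq_mul] at h1
    have h2 : Gr ^ 5 ≤ Gr ^ 8 := pow_le_pow_right₀ hG (by norm_num)
    have h3 : 2 * Gr * (Gr * e ^ 3) ^ 4 ≤ e ^ 8 :=
      calc 2 * Gr * (Gr * e ^ 3) ^ 4 = 2 * Gr ^ 5 * e ^ 12 := by ring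
        _ ≤ 2 * Gr ^ 8 * e ^ 12 := by gcongr
        _ = 2 * (Gr ^ 4 * e ^ 2) ^ 2 * e ^ 8 := by ring
        _ ≤ 2 * (1 / 2) ^ 2 * e ^ 8 := by gcongr
        _ ≤ e ^ 8 := by linarith [pow_pos he0 8]
    linarith [mul_le_mul_of_nonneg_right hcard (by positivity : 0 ≤ (Gr * e ^ 3) ^ 4)]
  refine ⟨?_, h4⟩
  have hθ1 : Gr * e ^ 3 ≤ θ := le_trans (by gcongr; nlinarith) hθ
  have hθ0 : 0 < θ := lt_of_lt_of_le (by positivity) hθ
  have h5 := cs s hθ0 hv (fun z hz => (ha z hz).imp_left fun h => h.trans hθ1) hW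
  obtain ⟨S, hS'⟩ : ∃ S, S = ∑ z ∈ s, a z ^ 2 := ⟨_, rfl⟩
  rw [← hS'] at h5 hS h4 ⊢
  have d1 : 1 ≤ √d := Real.one_le_sqrt.2 hd
  have d2 : √d * √d = d := Real.mul_self_sqrt (by linarith)
  have h6 : √(10250 * d) ≤ 102 * √d := Real.sqrt_le_iff.2 ⟨by positivity, by linarith⟩
  have s0 := Real.sqrt_nonneg S
  have h7 : θ ^ 2 * (10250 * d) ≤ 10250 * (√d * √S) := by
    rcases hc with h | h
    · have h8 : e ^ 4 ≤ √S := Real.le_sqrt_of_sq_le (by rwa [← pow_mul])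
      have h9 : θ ^ 2 * (10250 * d) = 10250 * d * (Gr ^ 4 * e ^ 2) * e ^ 4 := by rw [h]; ring
      have h10 : 10250 * d * (Gr ^ 4 * e ^ 2) ≤ 1 := by linarith [mul_pos (zero_lt_one.trans_le hd) g0]
      linarith [mul_le_mul_of_nonneg_right h10 (pow_pos he0 4).le, mul_le_mul_of_nonneg_right d1 s0]
    · have h8 : θ ^ 4 * ∑ z ∈ s, min 1 ((v z / θ) ^ 4) ≤ ∑ z ∈ s, v z ^ 4 := by
        rw [mul_sum]
        refine sum_le_sum fun z _ => (mul_le_mul_of_nonneg_left (min_le_right _ _) (by positivity)).trans_eq ?_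
        field_simp
      have h9 : θ ^ 2 * √d ≤ √S := Real.le_sqrt_of_sq_le (by
        rw [mul_pow, ← pow_mul, Real.sq_sqrt (by linarith)]
        norm_num
        linarith [mul_le_mul_of_nonneg_left h (pow_pos hθ0 4).le, mul_le_mul_of_nonneg_left hd (pow_pos hθ0 4).le,
          pow_pos hθ0 4])
      calc θ ^ 2 * (10250 * d) = 10250 * (√d * (θ ^ 2 * √d)) := by linear_combination (-10250 * θ ^ 2) * d2
        _ ≤ _ := by gcongr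
  linarith [mul_le_mul_of_nonneg_right h6 s0, mul_nonneg (Real.sqrt_nonneg d) s0]

end Crest.Agent.R192.J
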