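import Mathlib

/-! R192, block J: finite weighted sums (independent samples, exponential moments, averaging). -/

set_option autoImplicit false

open Finset

noncomputable section

namespace Crest.Agent.R192.J

section W
variable {Ω : Type} [Fintype Ω] {w χ : Ω → ℝ}

theorem up (h0 : ∀ o, 0 ≤ w o) (h1 : ∑ o, w o = 1) {v : Ω → ℝ} (hv : ∑ o, w o * v o ≤ 2) {a : ℝ} (ha : 0 ≤ a) :
    ∑ o, w o * min 1 (a * v o) ≤ 2 * min 1 a := by
  rcases le_total 1 a with h | h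
  · rw [min_eq_left h]
    calc _ ≤ ∑ o, w o * 1 := sum_le_sum fun o _ => mul_le_mul_of_nonneg_left (min_le_left _ _) (h0 o)
      _ ≤ _ := by simp [h1]
  · rw [min_eq_right h]
    calc _ ≤ ∑ o, w o * (a * v o) := sum_le_sum fun o _ => mul_le_mul_of_nonneg_left (min_le_right _ _) (h0 o)
      _ = a * ∑ o, w o * v o := by rw [mul_sum]; exact sum_congr rfl fun o _ => by ring
      _ ≤ _ := by nlinarith

theorem low (h0 : ∀ o, 0 ≤ w o) (hχ : ∀ o, χ o = 0 ∨ χ o = 1)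
    (hχ' : 15 / 16 ≤ ∑ o, w o * χ o) {u F : Ω → ℝ} (hu0 : ∀ o, 0 < u o) (hu : ∑ o, w o * (u o)⁻¹ ^ 5 ≤ 2)
    {a : ℝ} (ha : 0 ≤ a) (hF0 : ∀ o, 0 ≤ F o) (hF : ∀ o, 1 / 2 ≤ u o → a ≤ F o) :
    7 / 8 * a ≤ ∑ o, w o * (χ o * F o) := by
  have h2 : ∀ o, a * (χ o - (u o)⁻¹ ^ 5 / 32) ≤ χ o * F o := fun o => by
    have h3 : 0 ≤ (u o)⁻¹ ^ 5 := by have := hu0 o; positivity
    rcases hχ o with h | h <;> rw [h]
    · nlinarith [mul_nonneg ha h3]
    · rcases le_total (1 / 2) (u o) with h4 | h4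
      · nlinarith [mul_nonneg ha h3, hF o h4]
      · have h5 : 2 ≤ (u o)⁻¹ := by
          rw [le_inv_comm₀ two_pos (hu0 o)]
          linarith
        have h6 := pow_le_pow_left₀ zero_le_two h5 5
        nlinarith [hF0 o]
  calc 7 / 8 * a ≤ a * (∑ o, w o * χ o - (∑ o, w o * (u o)⁻¹ ^ 5) / 32) := by nlinarith
    _ = ∑ o, w o * (a * (χ o - (u o)⁻¹ ^ 5 / 32)) := by
      rw [sum_div, ← sum_sub_distrib, mul_sum]
      exact sum_congr rfl fun o _ => by ring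
    _ ≤ _ := sum_le_sum fun o _ => mul_le_mul_of_nonneg_left (h2 o) (h0 o)

theorem min_le_mul {a b k : ℝ} (hk : 1 ≤ k) (h : a ≤ k * b) : min 1 a ≤ k * min 1 b := by
  rcases le_total 1 b with h1 | h1
  · rw [min_eq_left h1, mul_one]
    exact (min_le_left _ _).trans hk
  · rw [min_eq_right h1]
    exact (min_le_right _ _).trans h

theorem UL (h0 : ∀ o, 0 ≤ w o) (h1 : ∑ o, w o = 1) (hχ : ∀ o, χ o = 0 ∨ χ o = 1)
    (hχ' : 15 / 16 ≤ ∑ o, w o * χ o) {κ : Type} (U : Finset κ) {x l : κ → ℝ} {u : κ → Ω → ℝ} {d : ℝ}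
    (hd : 0 ≤ d) (hx : ∀ J, 0 ≤ x J) (hu0 : ∀ J o, 0 < u J o) (hu1 : ∀ J, ∑ o, w o * u J o ≤ 2)
    (hu4 : ∀ J, ∑ o, w o * u J o ^ 4 ≤ 2) (hu5 : ∀ J, ∑ o, w o * (u J o)⁻¹ ^ 5 ≤ 2)
    (hg : ∀ o, χ o = 1 → ∑ J ∈ U, min 1 ((l J * (x J * u J o)) ^ 2) ≤ 8 * ∑ J ∈ U, min 1 (x J * u J o) + d ∧
      (∑ J ∈ U, min 1 (x J * u J o) - 1) / 2 - d ≤ ∑ J ∈ U, min 1 ((l J * (x J * u J o)) ^ 4)) :
    ∑ J ∈ U, min 1 ((l J * x J) ^ 2) ≤ 80 * ∑ J ∈ U, min 1 (x J) + 5 * d ∧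
      7 / 64 * ∑ J ∈ U, min 1 (x J) - 1 / 4 - d / 2 ≤ ∑ J ∈ U, min 1 ((l J * x J) ^ 4) := by
  have hm : ∀ o, 0 ≤ ∑ J ∈ U, min 1 (x J * u J o) := fun o =>
    sum_nonneg fun J _ => le_min zero_le_one (mul_nonneg (hx J) (hu0 J o).le)
  constructor
  · have a1 : ∀ J, 7 / 8 * min 1 ((l J * x J) ^ 2) ≤
        ∑ o, w o * (χ o * (4 * min 1 ((l J * (x J * u J o)) ^ 2))) := fun J =>
      low h0 hχ hχ' (hu0 J) (hu5 J) (by positivity) (fun o => by positivity) fun o h =>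
        min_le_mul (by norm_num) (by
          have := mul_le_mul_of_nonneg_left (pow_le_pow_left₀ (by norm_num) h 2) (sq_nonneg (l J * x J))
          nlinarith)
    have a2 := sum_le_sum fun J (_ : J ∈ U) => a1 J
    rw [← mul_sum, sum_comm] at a2
    have a3 := sum_le_sum fun J (_ : J ∈ U) => up h0 h1 (hu1 J) (hx J)
    rw [← mul_sum, sum_comm] at a3
    have a4 : ∑ o, ∑ J ∈ U, w o * (χ o * (4 * min 1 ((l J * (x J * u J o)) ^ 2))) ≤
        ∑ o, (32 * ∑ J ∈ U, w o * min 1 (x J * u J o) + 4 * d * w o) := sum_le_sum fun o _ => by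
      rw [← mul_sum, ← mul_sum, ← mul_sum, ← mul_sum]
      rcases hχ o with h | h
      · rw [h]
        nlinarith [mul_nonneg (h0 o) (hm o), mul_nonneg hd (h0 o)]
      · rw [h]
        nlinarith [mul_le_mul_of_nonneg_left (hg o h).1 (h0 o)]
    rw [sum_add_distrib, ← mul_sum, ← mul_sum, h1] at a4
    have a5 : 0 ≤ ∑ J ∈ U, min 1 (x J) := sum_nonneg fun J _ => le_min zero_le_one (hx J)
    linarith
  · have a1 : ∀ J, 7 / 8 * min 1 (x J) ≤ ∑ o, w o * (χ o * (2 * min 1 (x J * u J o))) := fun J =>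
      low h0 hχ hχ' (hu0 J) (hu5 J) (le_min zero_le_one (hx J))
        (fun o => mul_nonneg zero_le_two (le_min zero_le_one (mul_nonneg (hx J) (hu0 J o).le))) fun o h =>
        min_le_mul (by norm_num) (by nlinarith [mul_le_mul_of_nonneg_left h (hx J)])
    have a2 := sum_le_sum fun J (_ : J ∈ U) => a1 J
    rw [← mul_sum, sum_comm] at a2
    have a3 := sum_le_sum fun J (_ : J ∈ U) => up h0 h1 (hu4 J) (a := (l J * x J) ^ 4) (by positivity)
    rw [← mul_sum, sum_comm] at a3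
    have a4 : ∑ o, ∑ J ∈ U, w o * (χ o * (2 * min 1 (x J * u J o))) ≤
        ∑ o, (4 * ∑ J ∈ U, w o * min 1 ((l J * x J) ^ 4 * u J o ^ 4) + (2 + 4 * d) * w o) := sum_le_sum fun o _ => by
      simp only [← mul_pow, mul_assoc]
      rw [← mul_sum, ← mul_sum, ← mul_sum, ← mul_sum]
      rcases hχ o with h | h
      · have : 0 ≤ ∑ J ∈ U, min 1 ((l J * (x J * u J o)) ^ 4) := sum_nonneg fun J _ => by positivity
        rw [h]
        nlinarith [mul_nonneg (h0 o) this, mul_nonneg hd (h0 o), h0 o]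
      · rw [h]
        nlinarith [mul_le_mul_of_nonneg_left (hg o h).2 (h0 o)]
    rw [sum_add_distrib, ← mul_sum, ← mul_sum, h1] at a4
    linarith

end W

variable {ι : Type} [Fintype ι] {q : ℕ} {p : ℕ → ι → ℝ}

/-- the weight of a sample -/
def wp (p : ℕ → ι → ℝ) (Y : Fin q → ι) : ℝ := ∏ b : Fin q, p b (Y b)

theorem sum_wp_prod (p : ℕ → ι → ℝ) (F : Fin q → ι → ℝ) :
    ∑ Y : Fin q → ι, wp p Y * ∏ b, F b (Y b) = ∏ b : Fin q, ∑ i, p b i * F b i := by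
  classical
  rw [Finset.prod_univ_sum, Fintype.piFinset_univ]
  simp only [wp, prod_mul_distrib]

variable (hp : ∀ b ≤ q, (∀ i, 0 ≤ p b i) ∧ ∑ i, p b i = 1)
include hp

omit [Fintype ι] hp in
theorem wp_nonneg (hp : ∀ b ≤ q, ∀ i, 0 ≤ p b i) (Y : Fin q → ι) : 0 ≤ wp p Y :=
  prod_nonneg fun b _ => hp b b.2.le _

theorem sum_wp : ∑ Y : Fin q → ι, wp p Y = 1 := by
  simpa [fun b : Fin q => (hp b b.2.le).2] using sum_wp_prod (q := q) p fun _ _ => 1

theorem sum_wp_one (b : Fin q) (f : ι → ℝ) : ∑ Y : Fin q → ι, wp p Y * f (Y b) = ∑ i, p b i * f i := by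
  have h := sum_wp_prod p fun b' i => if b' = b then f i else 1
  rw [prod_eq_single b (fun b' _ hb => by simp [hb, (hp b' b'.2.le).2]) (by simp)] at h
  simpa using h

theorem sum_wp_two {b b' : Fin q} (hb : b ≠ b') (D : ι → ι → ℝ) :
    ∑ Y : Fin q → ι, wp p Y * D (Y b) (Y b') = ∑ i, ∑ i', p b i * p b' i' * D i i' := by
  classical
  have h : ∀ i i', ∑ Y : Fin q → ι, wp p Y * ((if Y b = i then 1 else 0) * if Y b' = i' then 1 else 0) =
      p b i * p b' i' := fun i i' => by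
    have h := sum_wp_prod p fun c j => (if c = b then (if j = i then 1 else 0) else 1) *
      if c = b' then (if j = i' then 1 else 0) else 1
    rw [prod_eq_mul b b' hb (fun c _ hc => by simp [hc.1, hc.2, (hp c c.2.le).2]) (by simp) (by simp)] at h
    simp only [prod_mul_distrib, prod_ite_eq', mem_univ, if_true] at h
    simpa [hb, hb.symm] using h
  simp only [← h, sum_mul]
  rw [eq_comm]
  refine (sum_congr rfl fun i _ => sum_comm).trans (sum_comm.trans (sum_congr rfl fun Y _ => ?_))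
  simp

omit hp in
theorem mgf1 {p p' a : ι → ℝ} (h0 : ∀ i, 0 ≤ p i) (h1 : ∑ i, p i = 1) (h0' : ∀ i, 0 ≤ p' i) (h1' : ∑ i, p' i = 1)
    {R t : ℝ} {D : ι → ι → ℝ} (ha : ∀ i, 0 ≤ a i ∧ a i ≤ R) (hD : ∀ i i', |a i - a i'| ≤ D i i')
    (ht : |t| * R ≤ 1) : ∑ i, p i * Real.exp (t * (a i - ∑ j, p j * a j)) ≤
      Real.exp (t ^ 2 * R * ∑ i, ∑ i', p i * p' i' * D i i') := by
  obtain ⟨μ, hμ⟩ : ∃ μ, μ = ∑ j, p j * a j := ⟨_, rfl⟩
  rw [← hμ]
  have m0 : 0 ≤ μ := hμ ▸ sum_nonneg fun j _ => mul_nonneg (h0 j) (ha j).1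
  have m1 : μ ≤ R := by
    rw [hμ, ← one_mul R, ← h1, sum_mul]
    exact sum_le_sum fun j _ => mul_le_mul_of_nonneg_left (ha j).2 (h0 j)
  have e0 : ∑ i, p i * (a i - μ) = 0 := by
    simp only [mul_sub, sum_sub_distrib, ← sum_mul, h1, ← hμ, one_mul, sub_self]
  have e1 : ∀ m, ∑ i, p i * (a i - μ) ^ 2 ≤ ∑ i, p i * (a i - m) ^ 2 := fun m => by
    have : ∑ i, p i * (a i - m) ^ 2 =
        ∑ i, (p i * (a i - μ) ^ 2 + 2 * (μ - m) * (p i * (a i - μ)) + (μ - m) ^ 2 * p i) :=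
      sum_congr rfl fun i _ => by ring
    rw [this, sum_add_distrib, sum_add_distrib, ← mul_sum, ← mul_sum, e0, h1]
    nlinarith [sq_nonneg (μ - m)]
  have e2 : ∑ i, p i * (a i - μ) ^ 2 ≤ R * ∑ i, ∑ i', p i * p' i' * D i i' := by
    rw [← one_mul (∑ i, p i * (a i - μ) ^ 2), ← h1', sum_mul, sum_comm, mul_sum]
    refine sum_le_sum fun i' _ => (mul_le_mul_of_nonneg_left (e1 (a i')) (h0' i')).trans ?_
    rw [mul_sum, mul_sum]
    refine sum_le_sum fun i _ => ?_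
    have h2 : |a i - a i'| ≤ R := abs_le.2 ⟨by linarith [(ha i).1, (ha i').2], by linarith [(ha i).2, (ha i').1]⟩
    have h3 := mul_le_mul h2 (hD i i') (abs_nonneg _) ((abs_nonneg _).trans h2)
    rw [abs_mul_abs_self] at h3
    nlinarith [mul_le_mul_of_nonneg_left h3 (mul_nonneg (h0 i) (h0' i'))]
  calc _ ≤ ∑ i, (p i + t * (p i * (a i - μ)) + t ^ 2 * (p i * (a i - μ) ^ 2)) := sum_le_sum fun i _ => by
        have h2 : |t * (a i - μ)| ≤ 1 := by
          rw [abs_mul]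
          exact (mul_le_mul_of_nonneg_left (abs_le.2 ⟨by linarith [(ha i).1], by linarith [(ha i).2]⟩)
            (abs_nonneg _)).trans ht
        nlinarith [mul_le_mul_of_nonneg_left (abs_le.1 (Real.abs_exp_sub_one_sub_id_le h2)).2 (h0 i)]
    _ ≤ t ^ 2 * R * (∑ i, ∑ i', p i * p' i' * D i i') + 1 := by
        rw [sum_add_distrib, sum_add_distrib, ← mul_sum, ← mul_sum, e0, h1]
        nlinarith [mul_le_mul_of_nonneg_left e2 (sq_nonneg t)]
    _ ≤ _ := Real.add_one_le_exp _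

theorem mgf {a : ι → ℝ} {R t V : ℝ} {D : ι → ι → ℝ} (hR : 0 ≤ R) (ha : ∀ i, 0 ≤ a i ∧ a i ≤ R)
    (hD : ∀ i i', |a i - a i'| ≤ D i i') (ht : |t| * R ≤ 1)
    (hV : ∑ b ∈ range q, ∑ i, ∑ i', p b i * p (b + 1) i' * D i i' ≤ V) :
    ∑ Y : Fin q → ι, wp p Y * Real.exp (t * (∑ b, a (Y b) - ∑ b ∈ range q, ∑ i, p b i * a i)) ≤
      Real.exp (t ^ 2 * R * V) := by
  simp only [sum_range, ← sum_sub_distrib, mul_sum, Real.exp_sum]
  rw [sum_wp_prod p fun b i => Real.exp (t * (a i - ∑ j, p b j * a j))]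
  refine (prod_le_prod (fun (b : Fin q) _ => sum_nonneg fun i _ =>
    mul_nonneg ((hp b b.2.le).1 i) (Real.exp_pos _).le) fun (b : Fin q) _ => mgf1 (hp b b.2.le).1 (hp b b.2.le).2 (hp (b + 1) b.2).1 (hp (b + 1) b.2).2 ha hD ht).trans ?_
  rw [← Real.exp_sum, ← mul_sum, Real.exp_le_exp]
  rw [sum_range] at hV
  exact mul_le_mul_of_nonneg_left hV (by positivity)

theorem chain (hq : 1 ≤ q) {X : Type} {D : X → X → ℝ} (h0 : ∀ a b, 0 ≤ D a b) (hc : ∀ a b, D a b = D b a)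
    (ht : ∀ a b c, D a c ≤ D a b + D b c) (c : X) (y : ι → X) {V A : ℝ}
    (hV : ∑ b ∈ range q, ∑ i, ∑ i', p b i * p (b + 1) i' * D (y i) (y i') ≤ V)
    (hA : ∑ b ∈ range q, ∑ i, p b i * D c (y i) ≤ q * A) :
    ∑ Y : Fin q → ι, wp p Y * ∑ b : Fin q,
      D ((Fin.cons c (fun b => y (Y b)) : Fin (q + 1) → X) b.castSucc) (y (Y b)) ≤ A + 2 * V := by
  have hD : ∀ b < q, 0 ≤ ∑ i, ∑ i', p b i * p (b + 1) i' * D (y i) (y i') := fun b hb =>
    sum_nonneg fun i _ => sum_nonneg fun i' _ =>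
      mul_nonneg (mul_nonneg ((hp b hb.le).1 i) ((hp (b + 1) hb).1 i')) (h0 _ _)
  have hS : ∀ n ≤ q, ∑ b ∈ range n, ∑ i, ∑ i', p b i * p (b + 1) i' * D (y i) (y i') ≤ V := fun n hn =>
    (sum_le_sum_of_subset_of_nonneg (range_subset_range.2 hn) fun b hb _ => hD b (mem_range.1 hb)).trans hV
  have h1 : ∀ n ≤ q, ∑ i, p 0 i * D c (y i) ≤ ∑ i, p n i * D c (y i) +
      ∑ b ∈ range n, ∑ i, ∑ i', p b i * p (b + 1) i' * D (y i) (y i') := fun n hn => by
    induction n with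
    | zero => simp
    | succ n ih =>
      have h2 : ∑ i, p n i * D c (y i) ≤
          ∑ i, ∑ i', (p n i * (p (n + 1) i' * D c (y i')) + p n i * p (n + 1) i' * D (y i) (y i')) :=
        sum_le_sum fun i _ => by
          rw [← mul_one (p n i * D c (y i)), ← (hp (n + 1) hn).2, mul_sum]
          refine sum_le_sum fun i' _ => ?_
          have := ht c (y i') (y i)
          rw [hc (y i')] at this
          nlinarith [mul_le_mul_of_nonneg_left this (mul_nonneg ((hp n (by omega)).1 i) ((hp (n + 1) hn).1 i'))]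
      simp only [sum_add_distrib, ← mul_sum, ← sum_mul, (hp n (by omega)).2, one_mul] at h2
      rw [sum_range_succ]
      linarith [ih (by omega)]
  have h2 : ∑ i, p 0 i * D c (y i) ≤ A + V := by
    have h3 := sum_le_sum fun n (hn : n ∈ range q) =>
      (h1 n (mem_range.1 hn).le).trans (add_le_add le_rfl (hS n (mem_range.1 hn).le))
    simp only [sum_const, card_range, nsmul_eq_mul, sum_add_distrib] at h3
    have h4 : (0 : ℝ) < q := Nat.cast_pos.2 hq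
    refine le_of_mul_le_mul_left ?_ h4
    linarith
  obtain ⟨n, rfl⟩ : ∃ n, q = n + 1 := ⟨q - 1, by omega⟩
  simp only [Fin.sum_univ_succ, mul_add, sum_add_distrib, mul_sum, Fin.castSucc_zero, Fin.cons_zero,
    ← Fin.succ_castSucc, Fin.cons_succ]
  rw [sum_wp_one hp 0 fun i => D c (y i), sum_comm,
    sum_congr rfl fun (b : Fin n) _ => sum_wp_two hp b.castSucc_lt_succ.ne fun i i' => D (y i) (y i')]
  have h3 := hS n n.le_succ
  rw [sum_range] at h3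
  simp only [Fin.val_zero, Fin.val_castSucc, Fin.val_succ]
  linarith

end Crest.Agent.R192.J
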