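import Crest.Agent.R192.Iface
import Crest.Agent.R192.Lab
import Crest.Agent.R192.Ker
import Crest.Agent.R192.J.Prob
import Crest.Agent.R192.J.Det

/-! R192, block J: the amplitudes of a slow piece of path have few effective labels. -/

set_option autoImplicit false

open Finset

noncomputable section

namespace Crest.Agent.R192
namespace J

variable {G : Type} [Group G] {L : Len G} {P : Par} {g : G} {ι : Type} [Fintype ι] {y : ι → G} {p : ℕ → ι → ℝ}
  {c : G} {E : Lab g → ℝ}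

theorem mgf_E (h : Valid L P) (hp : ∀ b ≤ P.q, (∀ i, 0 ≤ p b i) ∧ ∑ i, p b i = 1)
    (hV : ∑ b ∈ range P.q, ∑ i, ∑ i', p b i * p (b + 1) i' * dT L P.R' (y i) (y i') ≤ 2 * P.q * P.r1)
    (hE : ∀ J, E J = P.gam * ((∑ b ∈ range P.q, ∑ i, p b i * fJ L P J (y i)) / P.q)) (J : Lab g) {s : ℝ}
    (hs : |s| ≤ 8) : ∑ Y : Fin P.q → ι, wp p Y * Real.exp (s * (Eh L P J (fun b => y (Y b)) - E J)) ≤ 2 := by
  have hq : (0 : ℝ) < P.q := Nat.cast_pos.2 h.q_pos
  have hg := h.gam_ge
  have hr : (1 : ℝ) ≤ P.rho := Nat.one_le_cast.2 h.rho_pos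
  have hr1 : (1 : ℝ) ≤ P.r1 := Nat.one_le_cast.2 h.r1_pos
  have hR : (P.R : ℝ) = 16 * P.rho := by simp [Par.R]
  have hv := h.var
  have h1 := mgf hp (t := s * P.gam / P.q) (Nat.cast_nonneg P.R) (fun i => ⟨fJ_nonneg L P J (y i), fJ_le L P J _⟩)
    (fun i i' => abs_fJ_sub_le L P J (y i) (y i')) (by
      rw [abs_div, abs_mul, abs_of_pos hq, abs_of_pos (zero_lt_one.trans_le hg), div_mul_eq_mul_div, div_le_one hq, hR]
      calc |s| * P.gam * (16 * P.rho) ≤ 8 * P.gam * (16 * P.rho) := by gcongr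
        _ = 128 * (P.gam * 1) * P.rho * 1 := by ring
        _ ≤ 8192 * (P.gam * P.gam) * P.rho * P.r1 := by gcongr; norm_num
        _ ≤ _ := by rwa [← sq]) hV
  refine le_trans (le_of_eq (sum_congr rfl fun Y _ => ?_)) (h1.trans ?_)
  · rw [hE, Eh]
    congr 2
    ring
  · refine (Real.exp_le_exp.2 ?_).trans_eq (Real.exp_log two_pos)
    rw [hR]
    have h2 : s ^ 2 ≤ 64 := by nlinarith [abs_nonneg s, sq_abs s]
    calc _ = s ^ 2 * (8192 * P.gam ^ 2 * P.rho * P.r1 / P.q) / 256 := by field_simp; ring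
      _ ≤ 64 * 1 / 256 := by gcongr; rwa [div_le_one hq]
      _ ≤ _ := by linarith [Real.log_two_gt_d9]

open Classical in
theorem short (h : Valid L P) (hp : ∀ b ≤ P.q, (∀ i, 0 ≤ p b i) ∧ ∑ i, p b i = 1)
    (hV : ∑ b ∈ range P.q, ∑ i, ∑ i', p b i * p (b + 1) i' * dT L P.R' (y i) (y i') ≤ 2 * P.q * P.r1)
    (hA : ∑ b ∈ range P.q, ∑ i, p b i * dT L P.R' c (y i) ≤ 2 * P.q * P.rho) :
    15 / 16 ≤ ∑ Y : Fin P.q → ι, wp p Y * if (fun b => y (Y b)) ∈ net L P c then 1 else 0 := by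
  have h1 := chain hp h.q_pos (dT_nonneg L P.R') (dT_comm L P.R') (dT_triangle L P.R') c y hV
    (A := 2 * P.rho) (hA.trans_eq (by ring))
  have hr : (1 : ℝ) ≤ P.rho := Nat.one_le_cast.2 h.rho_pos
  have hL : (P.Lam : ℝ) = 16 * (2 * P.rho + 2 * (2 * P.q * P.r1)) := by simp [Par.Lam]; ring
  have hL0 : (0 : ℝ) < P.Lam := by rw [hL]; positivity
  have h2 := sum_le_sum fun (Y : Fin P.q → ι) (_ : Y ∈ univ) => mul_le_mul_of_nonneg_left
    (show (P.Lam : ℝ) ≤ P.Lam * (if (fun b => y (Y b)) ∈ net L P c then 1 else 0) + ∑ b : Fin P.q, dT L P.R'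
        ((Fin.cons c (fun b => y (Y b)) : Fin (P.q + 1) → G) b.castSucc) (y (Y b)) by
      split_ifs with h3
      · rw [mul_one]
        exact le_add_of_nonneg_right (sum_nonneg fun b _ => dT_nonneg L _ _ _)
      · simp only [mul_zero, zero_add, dT, ← Nat.cast_sum, Nat.cast_le]
        refine le_of_not_ge fun h4 => h3 (le_trans (le_of_eq (sum_congr rfl fun b _ => ?_)) h4)
        have h5 := (single_le_sum (fun _ _ => Nat.zero_le _) (mem_univ b)).trans h4
        unfold Par.R' at h5 ⊢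
        beta_reduce
        omega) (wp_nonneg (fun b hb => (hp b hb).1) Y)
  simp only [mul_add, sum_add_distrib, mul_left_comm _ (P.Lam : ℝ)] at h2
  rw [← mul_sum, ← sum_mul, sum_wp hp] at h2
  refine le_of_mul_le_mul_left ?_ hL0
  linarith

theorem th_pos (P : Par) (j : ℕ) : 0 < P.th j := by
  unfold Par.th Par.GG
  positivity

theorem layer (h : Valid L P) (hp : ∀ b ≤ P.q, (∀ i, 0 ≤ p b i) ∧ ∑ i, p b i = 1)
    (hV : ∑ b ∈ range P.q, ∑ i, ∑ i', p b i * p (b + 1) i' * dT L P.R' (y i) (y i') ≤ 2 * P.q * P.r1)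
    (hA : ∑ b ∈ range P.q, ∑ i, p b i * dT L P.R' c (y i) ≤ 2 * P.q * P.rho)
    (hE : ∀ J, E J = P.gam * ((∑ b ∈ range P.q, ∑ i, p b i * fJ L P J (y i)) / P.q)) {η : Lab g → Sg P}
    (hη : Good L P η c) {j : ℕ} (hj : j ≤ P.j1) :
    ∑ J ∈ UU L P g c, min 1 ((lev P (η J) * (Real.exp (-E J) / P.th j)) ^ 2) ≤
        80 * ∑ J ∈ UU L P g c, min 1 (Real.exp (-E J) / P.th j) + 5 * P.d ∧
      7 / 64 * ∑ J ∈ UU L P g c, min 1 (Real.exp (-E J) / P.th j) - 1 / 4 - P.d / 2 ≤
        ∑ J ∈ UU L P g c, min 1 ((lev P (η J) * (Real.exp (-E J) / P.th j)) ^ 4) := by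
  classical
  refine UL (wp_nonneg fun b hb => (hp b hb).1) (sum_wp hp) (fun Y => by split_ifs <;> simp) (short h hp hV hA) _
    (u := fun J Y => Real.exp (-(Eh L P J (fun b => y (Y b)) - E J))) (Nat.cast_nonneg _)
    (fun J => (div_pos (Real.exp_pos _) (th_pos P j)).le) (fun _ _ => Real.exp_pos _) (fun J => ?_) (fun J => ?_)
    (fun J => ?_) fun Y hY => ?_
  · simpa only [neg_one_mul] using mgf_E h hp hV hE J (s := -1) (by norm_num)
  · simpa only [← Real.exp_nat_mul, mul_neg, neg_mul, Nat.cast_ofNat] using mgf_E h hp hV hE J (s := -4) (by norm_num)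
  · simpa only [← Real.exp_neg, neg_neg, ← Real.exp_nat_mul, Nat.cast_ofNat] using
      mgf_E h hp hV hE J (s := 5) (by norm_num)
  · have e : ∀ J, Real.exp (-E J) / P.th j * Real.exp (-(Eh L P J (fun b => y (Y b)) - E J)) =
        Real.exp (-Eh L P J fun b => y (Y b)) / P.th j := fun J => by
      rw [div_mul_eq_mul_div, ← Real.exp_add]
      congr 2
      ring
    simpa only [e, mh, mul_div_assoc] using hη.1 _ (by by_contra h1; simp [h1] at hY) j hj

end J

open J in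
theorem stJ : StJ := by
  intro G _ L P g h f hf ι _ y p hp c hV hA E hE
  obtain ⟨h1, p₀, h2⟩ := hf c
  choose η hη hfη using h1
  have hq : (0 : ℝ) < P.q := Nat.cast_pos.2 h.q_pos
  have hg := h.gam_ge
  have hr : (1 : ℝ) ≤ P.rho := Nat.one_le_cast.2 h.rho_pos
  have hd : (1 : ℝ) ≤ P.d := Nat.one_le_cast.2 h.d_pos
  have hG : (1 : ℝ) ≤ P.GG := Nat.one_le_cast.2 (Nat.le_add_left _ _)
  have hA0 : 0 < P.gam * P.rho := by positivity
  have hc : ((UU L P g c).card : ℝ) ≤ P.GG := Nat.cast_le.2 (card_UU_le L P h c)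
  have hE0 : ∀ J, 0 ≤ E J := fun J => by
    rw [hE]
    exact mul_nonneg (by positivity) (div_nonneg (sum_nonneg fun b hb => sum_nonneg fun i _ =>
      mul_nonneg ((hp b (mem_range.1 hb).le).1 i) (fJ_nonneg L P J _)) hq.le)
  have hv : ∀ z, 0 ≤ vE P f E z ∧ vE P f E z ≤ P.GG * Real.exp (-E z.1) := fun z => by
    unfold vE
    rcases f z.1 z.2 with _ | s
    · exact ⟨le_rfl, by positivity⟩
    · exact ⟨mul_nonneg (zero_le_one.trans (one_le_lev P s)) (Real.exp_pos _).le,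
        mul_le_mul_of_nonneg_right (lev_le P s) (Real.exp_pos _).le⟩
  have hv1 : ∀ r, ∀ J ∈ UU L P g c, f J r = none ∧ vE P f E (J, r) = 0 ∨
      vE P f E (J, r) = lev P (η r J) * Real.exp (-E J) := fun r J hJ =>
    (hfη r J hJ).imp (fun h3 => ⟨h3, by simp [vE, h3]⟩) fun h3 => by simp [vE, h3]
  have hv2 : ∀ J ∈ UU L P g c, vE P f E (J, p₀) = lev P (η p₀ J) * Real.exp (-E J) := fun J hJ =>
    (hv1 p₀ J hJ).resolve_left fun h3 => h2 J hJ h3.1
  have ha1 : ∀ z : Lab g × Fin 2, E z.1 ≤ 3 * (P.gam * P.rho) → aE P f E z = vE P f E z ^ 2 := fun z hz => by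
    rw [aE, cutf_eq_one ((div_le_iff₀ hA0).2 hz), one_mul]
  have hS : Real.exp (-(8 * (P.gam * P.rho))) ≤ ∑ z ∈ UU L P g c ×ˢ univ, aE P f E z ^ 2 := by
    have h3 := lab_mem_UU L P h (g := g) c
    have h4 : E (lab g c) ≤ 2 * (P.gam * P.rho) := by
      rw [hE, mul_left_comm]
      refine mul_le_mul_of_nonneg_left ((div_le_iff₀ hq).2 (le_trans (sum_le_sum fun b hb => sum_le_sum fun i _ =>
        mul_le_mul_of_nonneg_left ?_ ((hp b (mem_range.1 hb).le).1 i)) (hA.trans_eq (by ring)))) (by positivity)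
      have h5 := (abs_le.1 (abs_fJ_sub_le L P (lab g c) c (y i))).1
      have h6 : fJ L P (lab g c) c = 0 := by simp [fJ, dJ_lab_self]
      linarith
    refine le_trans ?_ (single_le_sum (f := fun z => aE P f E z ^ 2) (fun _ _ => sq_nonneg _)
      (mem_product.2 ⟨h3, mem_univ p₀⟩ : (lab g c, p₀) ∈ _))
    rw [ha1 _ (h4.trans (by linarith)), hv2 _ h3, ← pow_mul]
    refine le_trans ?_ (pow_le_pow_left₀ (Real.exp_pos _).le
      (le_mul_of_one_le_left (Real.exp_pos _).le (one_le_lev P _)) _)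
    rw [← Real.exp_nat_mul, Real.exp_le_exp]
    push_cast
    linarith
  have hth : ∀ j, P.th j = (P.GG : ℝ) ^ 2 * Real.exp (-(3 * (P.gam * P.rho))) * 2 ^ j := fun j => by
    rw [Par.th, mul_assoc 3]
  obtain ⟨j, hj, hm, hlo⟩ := choose_level (m := fun j => ∑ J ∈ UU L P g c, min 1 (Real.exp (-E J) / P.th j))
    (B := 32 * P.d) (by positivity) (fun j => by
      rw [mul_sum]
      refine sum_le_sum fun J _ => min_le_mul one_le_two (le_of_eq ?_)
      rw [hth, hth, pow_succ 2 j]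
      field_simp) P.j1 (by
      have h3 : P.GG ≤ P.th P.j1 := by
        have h4 : Real.exp (3 * (P.gam * P.rho)) ≤ 2 ^ P.j1 := by
          refine (Real.exp_le_exp.2 ?_).trans_eq
            ((Real.exp_nat_mul (Real.log 2) P.j1).trans (by rw [Real.exp_log two_pos]))
          have h5 : 5 * P.gam * P.rho ≤ P.j1 := Nat.le_ceil _
          nlinarith [Real.log_two_gt_d9]
        rw [hth, mul_assoc, Real.exp_neg]
        have h5 : 1 ≤ (Real.exp (3 * (P.gam * P.rho)))⁻¹ * 2 ^ P.j1 := by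
          rwa [le_inv_mul_iff₀ (Real.exp_pos _), mul_one]
        nlinarith [mul_le_mul_of_nonneg_left h5 (sq_nonneg (P.GG : ℝ))]
      refine (sum_le_card_nsmul _ _ (1 / P.GG : ℝ) fun J _ => (min_le_right _ _).trans ?_).trans ?_
      · exact div_le_div₀ zero_le_one (Real.exp_le_one_iff.2 (neg_nonpos.2 (hE0 J))) (by positivity) h3
      · rw [nsmul_eq_mul, mul_one_div]
        exact ((div_le_one (by positivity)).2 hc).trans (by linarith))
  have := det (UU L P g c ×ˢ univ) (v := vE P f E) (a := aE P f E) (θ := P.th j) hG hd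
    (h.low.trans_eq (by rw [mul_assoc])) (by simpa [mul_comm] using hc) (fun z => (hv z).1)
    (fun z _ => (le_total (3 * (P.gam * P.rho)) (E z.1)).imp (fun h3 => (hv z).2.trans (by gcongr)) (ha1 z)) hS
    (by rw [hth]; exact le_mul_of_one_le_right (by positivity) (one_le_pow₀ one_le_two)) (by
      rw [sum_product_right]
      refine (sum_le_card_nsmul _ _ (5125 * (P.d : ℝ)) fun r _ => ?_).trans_eq (by simp; ring)
      refine le_trans (sum_le_sum fun J hJ => ?_) ((layer h hp hV hA hE (hη r) hj).1.trans (by linarith))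
      rcases hv1 r J hJ with h3 | h3
      · rw [h3.2, zero_div, zero_pow two_ne_zero, min_eq_right zero_le_one]
        positivity
      · rw [h3, mul_div_assoc]) (hlo.imp (fun h3 => by rw [hth, h3, pow_zero, mul_one]) fun h3 => by
      rw [sum_product_right]
      refine le_trans ?_ (single_le_sum (f := fun r => ∑ J ∈ UU L P g c, min 1 ((vE P f E (J, r) / P.th j) ^ 4))
        (fun _ _ => sum_nonneg fun _ _ => by positivity) (mem_univ p₀))
      refine le_trans (by linarith) ((layer h hp hV hA hE (hη p₀) hj).2.trans_eq (sum_congr rfl fun J hJ => ?_))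
      rw [hv2 J hJ, mul_div_assoc])
  exact ⟨by rwa [mul_assoc], this⟩

end Crest.Agent.R192
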